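import Vale.Agent.H96.FQH.LaughlinGap

/-!
# P359: a uniform upper bound on the spectral gap of the spherical Laughlin Hamiltonian

At the Laughlin flux `Q = 3 (N - 1)` the two lowest eigenvalues `E_0 ≤ E_1` (counted with
multiplicity) of `H_{N,Q} = ∑_{i<j} P^{(1)}_{ij}` on antisymmetric vectors satisfy
`E_1 - E_0 ≤ (6 N - 7) / (3 N - 2) < 2` for every `N ≥ 2`.
-/

open Matrix

namespace Vale.Agent.Results.P359.A_GapUpperBound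

open Vale.Agent.H96 Vale.Agent.H96.FQH

theorem result (N Q : ℕ) (hN : 2 ≤ N) (hQ : Q = 3 * (N - 1)) :
    (pairProj Q * pairProj Q = pairProj Q ∧ (pairProj Q)ᴴ = pairProj Q ∧
      pairCasimir Q * pairProj Q = (((Q : ℂ) - 1) * (Q : ℂ)) • pairProj Q ∧
      Matrix.trace (pairProj Q) = 2 * (Q : ℂ) - 1) ∧
    ∃ E0 E1 : ℝ, ∃ Ψ0 Ψ1 : (Fin N → Fin (Q + 1)) → ℂ,
      IsAntisym Ψ0 ∧ Ψ0 ≠ 0 ∧ hamL N Q *ᵥ Ψ0 = (E0 : ℂ) • Ψ0 ∧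
      (∀ χ : (Fin N → Fin (Q + 1)) → ℂ, IsAntisym χ →
        E0 * ∑ σ, Complex.normSq (χ σ) ≤ (star χ ⬝ᵥ (hamL N Q *ᵥ χ)).re) ∧
      IsAntisym Ψ1 ∧ Ψ1 ≠ 0 ∧ star Ψ0 ⬝ᵥ Ψ1 = 0 ∧ hamL N Q *ᵥ Ψ1 = (E1 : ℂ) • Ψ1 ∧
      (∀ χ : (Fin N → Fin (Q + 1)) → ℂ, IsAntisym χ → star Ψ0 ⬝ᵥ χ = 0 →
        E1 * ∑ σ, Complex.normSq (χ σ) ≤ (star χ ⬝ᵥ (hamL N Q *ᵥ χ)).re) ∧
      E1 - E0 ≤ (6 * (N : ℝ) - 7) / (3 * (N : ℝ) - 2) := by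
  have hQ1 : 1 ≤ Q := by omega
  have hNQ : N ≤ Q := by omega
  refine ⟨⟨pairProj_mul_self hQ1, pairProj_isHermitian Q, pairProj_casimir hQ1,
    pairProj_trace hQ1⟩, ?_⟩
  obtain ⟨E0, E1, Ψ0, Ψ1, h1, h2, h3, h4, h5, h6, h7, h8, h9, h10⟩ := gap_upper hN hNQ
  refine ⟨E0, E1, Ψ0, Ψ1, h1, h2, h3, h4, h5, h6, h7, h8, h9, ?_⟩
  have hNr : (2 : ℝ) ≤ (N : ℝ) := by exact_mod_cast hN
  have hQr : (Q : ℝ) = 3 * ((N : ℝ) - 1) := by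
    rw [hQ]
    have : 1 ≤ N := by omega
    push_cast [Nat.cast_sub this]
    ring
  have e : 2 * ((2 * (Q : ℝ) - 1) / ((Q : ℝ) + 1)) * ((N : ℝ) - 1) / ((Q : ℝ) + 1 - (N : ℝ)) =
      (6 * (N : ℝ) - 7) / (3 * (N : ℝ) - 2) := by
    rw [hQr]
    have d1 : 3 * ((N : ℝ) - 1) + 1 ≠ 0 := by nlinarith
    have d2 : 3 * ((N : ℝ) - 1) + 1 - (N : ℝ) ≠ 0 := by nlinarith
    have d3 : 3 * (N : ℝ) - 2 ≠ 0 := by nlinarith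
    field_simp
    ring
  rw [← e]
  exact h10

end Vale.Agent.Results.P359.A_GapUpperBound
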